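import Vale.Agent.Lib.P254.Few.LinChange

/-! F3: affine invariance of `ratio K = det Σ_K / |K|^2`. -/

namespace Vale.Agent.Lib.P254

open MeasureTheory Set

variable {n : ℕ}

private theorem apply_eq_sum (L : (Fin n → ℝ) ≃ₗ[ℝ] (Fin n → ℝ)) (x : Fin n → ℝ) (a : Fin n) :
    L x a = ∑ i, LinearMap.toMatrix' (L : (Fin n → ℝ) →ₗ[ℝ] (Fin n → ℝ)) a i * x i := by
  have h := LinearMap.toMatrix'_mulVec (L : (Fin n → ℝ) →ₗ[ℝ] (Fin n → ℝ)) x
  have h2 := congrFun h a
  simp only [Matrix.mulVec, dotProduct] at h2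
  exact h2.symm

private theorem vol_image_affine (L : (Fin n → ℝ) ≃ₗ[ℝ] (Fin n → ℝ)) (c : Fin n → ℝ)
    (K : Set (Fin n → ℝ)) :
    vol ((fun x => L x + c) '' K)
      = |LinearMap.det (L : (Fin n → ℝ) →ₗ[ℝ] (Fin n → ℝ))| * vol K := by
  rw [vol_eq_integral, setIntegral_image_affine L c K (fun _ => (1 : ℝ)), ← vol_eq_integral]

private theorem centroid_image_affine (L : (Fin n → ℝ) ≃ₗ[ℝ] (Fin n → ℝ)) (c : Fin n → ℝ)
    {K : Set (Fin n → ℝ)} (hK : IsCompact K) (hV : vol K ≠ 0) :
    centroid ((fun x => L x + c) '' K) = L (centroid K) + c := by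
  have hdet : |LinearMap.det (L : (Fin n → ℝ) →ₗ[ℝ] (Fin n → ℝ))| ≠ 0 :=
    abs_ne_zero.mpr (LinearEquiv.isUnit_det' L).ne_zero
  funext a
  set M := LinearMap.toMatrix' (L : (Fin n → ℝ) →ₗ[ℝ] (Fin n → ℝ)) with hM
  set D := |LinearMap.det (L : (Fin n → ℝ) →ₗ[ℝ] (Fin n → ℝ))| with hD
  have hint : ∫ x in K, (L x + c) a = ∑ i, M a i * (∫ x in K, x i) + c a * vol K := by
    have e : ∀ x : Fin n → ℝ, (L x + c) a = ∑ i, M a i * x i + c a * 1 := by
      intro x
      rw [Pi.add_apply, apply_eq_sum L x a, mul_one]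
    simp_rw [e]
    rw [integral_add, integral_finsetSum, integral_const_mul, ← vol_eq_integral]
    · congr 1
      apply Finset.sum_congr rfl
      intro i _
      rw [integral_const_mul]
    · intro i _
      exact (integrableOn_coord hK i).const_mul _
    · exact integrable_finsetSum _ (fun i _ => (integrableOn_coord hK i).const_mul _)
    · exact (integrableOn_one hK).const_mul _
  have hlhs : centroid ((fun x => L x + c) '' K) a
      = (D * vol K)⁻¹ * (D * ∫ x in K, (L x + c) a) := by
    unfold centroid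
    rw [vol_image_affine, setIntegral_image_affine L c K (fun y => y a)]
  rw [hlhs, hint, Pi.add_apply, apply_eq_sum L (centroid K) a]
  have hsum : ∑ i, M a i * centroid K i = (vol K)⁻¹ * ∑ i, M a i * (∫ x in K, x i) := by
    rw [Finset.mul_sum]
    apply Finset.sum_congr rfl
    intro i _
    unfold centroid
    ring
  rw [hsum]
  field_simp

private theorem cov_image_affine (L : (Fin n → ℝ) ≃ₗ[ℝ] (Fin n → ℝ)) (c : Fin n → ℝ)
    {K : Set (Fin n → ℝ)} (hK : IsCompact K) (hV : vol K ≠ 0) :
    covMatrix ((fun x => L x + c) '' K)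
      = LinearMap.toMatrix' (L : (Fin n → ℝ) →ₗ[ℝ] (Fin n → ℝ)) * covMatrix K
        * (LinearMap.toMatrix' (L : (Fin n → ℝ) →ₗ[ℝ] (Fin n → ℝ))).transpose := by
  have hdet : |LinearMap.det (L : (Fin n → ℝ) →ₗ[ℝ] (Fin n → ℝ))| ≠ 0 :=
    abs_ne_zero.mpr (LinearEquiv.isUnit_det' L).ne_zero
  set M := LinearMap.toMatrix' (L : (Fin n → ℝ) →ₗ[ℝ] (Fin n → ℝ)) with hM
  set D := |LinearMap.det (L : (Fin n → ℝ) →ₗ[ℝ] (Fin n → ℝ))| with hD
  set g := centroid K with hg
  ext a b
  have hI : ∀ i j : Fin n, IntegrableOn (fun x : Fin n → ℝ => (x i - g i) * (x j - g j)) K volume :=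
    fun i j => (((continuous_apply i).sub continuous_const).mul
      ((continuous_apply j).sub continuous_const)).continuousOn.integrableOn_compact hK
  have hlhs : covMatrix ((fun x => L x + c) '' K) a b
      = (D * vol K)⁻¹ * (D * ∫ x in K, ((L x + c) a - (L g + c) a) * ((L x + c) b - (L g + c) b)) := by
    unfold covMatrix
    rw [vol_image_affine, centroid_image_affine L c hK hV,
      setIntegral_image_affine L c K
        (fun y => (y a - (L (centroid K) + c) a) * (y b - (L (centroid K) + c) b))]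
  have e : ∀ x : Fin n → ℝ, ((L x + c) a - (L g + c) a) * ((L x + c) b - (L g + c) b)
      = ∑ i, ∑ j, M a i * M b j * ((x i - g i) * (x j - g j)) := by
    intro x
    have ha : ∀ a : Fin n, (L x + c) a - (L g + c) a = ∑ i, M a i * (x i - g i) := by
      intro a
      rw [Pi.add_apply, Pi.add_apply, apply_eq_sum L x a, apply_eq_sum L g a]
      rw [add_sub_add_right_eq_sub, ← Finset.sum_sub_distrib]
      apply Finset.sum_congr rfl
      intro i _
      ring
    rw [ha a, ha b, Finset.sum_mul_sum]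
    apply Finset.sum_congr rfl
    intro i _
    apply Finset.sum_congr rfl
    intro j _
    ring
  have hint : ∫ x in K, ((L x + c) a - (L g + c) a) * ((L x + c) b - (L g + c) b)
      = ∑ i, ∑ j, M a i * M b j * ∫ x in K, (x i - g i) * (x j - g j) := by
    simp_rw [e]
    rw [integral_finsetSum]
    · apply Finset.sum_congr rfl
      intro i _
      rw [integral_finsetSum]
      · apply Finset.sum_congr rfl
        intro j _
        rw [integral_const_mul]
      · intro j _
        exact (hI i j).const_mul _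
    · intro i _
      exact integrable_finsetSum _ (fun j _ => (hI i j).const_mul _)
  rw [hlhs, hint]
  have hrhs : (M * covMatrix K * M.transpose) a b
      = (vol K)⁻¹ * ∑ i, ∑ j, M a i * M b j * ∫ x in K, (x i - g i) * (x j - g j) := by
    simp only [Matrix.mul_apply, Matrix.transpose_apply]
    simp_rw [Finset.sum_mul, Finset.mul_sum]
    rw [Finset.sum_comm]
    apply Finset.sum_congr rfl
    intro i _
    apply Finset.sum_congr rfl
    intro j _
    unfold covMatrix
    ring
  rw [hrhs]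
  field_simp

theorem ratio_image_affine (L : (Fin n → ℝ) ≃ₗ[ℝ] (Fin n → ℝ)) (c : Fin n → ℝ)
    {K : Set (Fin n → ℝ)} (hK : IsCompact K) (hV : vol K ≠ 0) :
    ratio ((fun x => L x + c) '' K) = ratio K := by
  have hdet : LinearMap.det (L : (Fin n → ℝ) →ₗ[ℝ] (Fin n → ℝ)) ≠ 0 :=
    (LinearEquiv.isUnit_det' L).ne_zero
  unfold ratio
  rw [cov_image_affine L c hK hV, vol_image_affine, Matrix.det_mul, Matrix.det_mul,
    Matrix.det_transpose, LinearMap.det_toMatrix', mul_pow, sq_abs]
  field_simp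

end Vale.Agent.Lib.P254
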