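import Vale.Agent.Lib.P254.Final

/-! Polytopes with at most `n + 2` vertices in `ℝ^n`: basic definitions (normal form). -/

namespace Vale.Agent.Lib.P254

open MeasureTheory Set

/-- the standard corner simplex `{x ≥ 0, ∑ x ≤ 1}` -/
def stdS (n : ℕ) : Set (Fin n → ℝ) := {x | (∀ i, 0 ≤ x i) ∧ ∑ i, x i ≤ 1}

/-- its vertices `0, e_1, …, e_n` -/
def stdVerts (n : ℕ) : Set (Fin n → ℝ) :=
  insert 0 (range fun i : Fin n => (Pi.single i 1 : Fin n → ℝ))

variable {n : ℕ}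

/-- normal form of a polytope with `n + 2` vertices: `conv {ω, 0, e_1, …, e_n}` -/
def hullW (ω : Fin n → ℝ) : Set (Fin n → ℝ) := convexHull ℝ (insert ω (stdVerts n))

/-- the linear map fixing `e_a` (`a ≠ i`) and sending `e_i` to `ω` -/
def repl (ω : Fin n → ℝ) (i : Fin n) (x : Fin n → ℝ) : Fin n → ℝ :=
  fun a => x a + x i * (ω a - if a = i then 1 else 0)

/-- negative part of `ω i` -/
noncomputable def eta (ω : Fin n → ℝ) (i : Fin n) : ℝ := max (-(ω i)) 0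

/-- `s = 1 + ∑ η_i` (`n! ·` volume of `hullW ω`) -/
noncomputable def sS (ω : Fin n → ℝ) : ℝ := 1 + ∑ i, eta ω i

/-- `∑ μ_p^2` for the Radon weights `μ` of the class `{ω} ∪ {e_i : ω_i < 0}` -/
noncomputable def muSq (ω : Fin n → ℝ) : ℝ := (1 + ∑ i, eta ω i ^ 2) / sS ω ^ 2

/-- `∑ ν_q^2` for the Radon weights `ν` of the class `{0} ∪ {e_i : ω_i > 0}` -/
noncomputable def nuSq (ω : Fin n → ℝ) : ℝ :=
  ((1 - ∑ i, ω i) ^ 2 + ∑ i, (max (ω i) 0) ^ 2) / sS ω ^ 2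

/-- the factor `1 - (1 - ∑ μ^2)(1 - ∑ ν^2)` -/
noncomputable def thetaW (ω : Fin n → ℝ) : ℝ := 1 - (1 - muSq ω) * (1 - nuSq ω)

/-- the value of `det Σ / vol^2` for simplices -/
noncomputable def simplexRatio (n : ℕ) : ℝ :=
  ((n.factorial : ℝ)) ^ 2 / (((n : ℝ) + 1) ^ (n + 1) * ((n : ℝ) + 2) ^ n)

/-- Radon point of the normal form -/
noncomputable def radonPt (ω : Fin n → ℝ) : Fin n → ℝ := fun a => (ω a + eta ω a) / sS ω

/-- `(n+1)(n+2) ·` covariance matrix of `hullW ω` -/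
noncomputable def Cmat (ω : Fin n → ℝ) : Matrix (Fin n) (Fin n) ℝ :=
  fun a b => (if a = b then 1 else 0) + ω a * ω b - radonPt ω a * radonPt ω b
    - (1 + ω a - radonPt ω a) * (1 + ω b - radonPt ω b) / ((n : ℝ) + 1)

end Vale.Agent.Lib.P254
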