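import Vale.Agent.Lib.P254.Few.Basic

/-! F4: the triangulation of `hullW ω` (pure convex geometry, no measure theory). -/

namespace Vale.Agent.Lib.P254

open Set

variable {n : ℕ}

private lemma convex_stdS (n : ℕ) : Convex ℝ (stdS n) := by
  intro x hx y hy a b ha hb hab
  refine ⟨fun i => ?_, ?_⟩
  · have h1 := hx.1 i
    have h2 := hy.1 i
    simp only [Pi.add_apply, Pi.smul_apply, smul_eq_mul]
    positivity
  · have h1 := hx.2
    have h2 := hy.2
    simp only [Pi.add_apply, Pi.smul_apply, smul_eq_mul]
    rw [Finset.sum_add_distrib, ← Finset.mul_sum, ← Finset.mul_sum]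
    nlinarith

private lemma stdVerts_subset (n : ℕ) : stdVerts n ⊆ stdS n := by
  intro x hx
  rcases hx with rfl | ⟨i, rfl⟩
  · exact ⟨fun i => le_refl _, by simp⟩
  · refine ⟨fun a => ?_, ?_⟩
    · by_cases h : a = i
      · subst h; simp
      · simp [h]
    · simp [Pi.single_apply]

/-- a point of the corner simplex, with the vertex `e_i` replaced by arbitrary points `z i` -/
private lemma comb_mem {s : Set (Fin n → ℝ)} (z : Fin n → (Fin n → ℝ)) (h0 : (0 : Fin n → ℝ) ∈ s)
    (hz : ∀ i, z i ∈ s) (y : Fin n → ℝ) (hy : y ∈ stdS n) :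
    ∑ i, y i • z i ∈ convexHull ℝ s := by
  refine mem_convexHull_of_exists_fintype (ι := Option (Fin n))
    (fun o => o.elim (1 - ∑ i, y i) y) (fun o => o.elim 0 z) ?_ ?_ ?_ ?_
  · intro o
    cases o with
    | none => simpa using hy.2
    | some i => exact hy.1 i
  · rw [Fintype.sum_option]; simp
  · intro o
    cases o with
    | none => exact h0
    | some i => exact hz i
  · rw [Fintype.sum_option]; simp

theorem stdS_eq_convexHull (n : ℕ) : stdS n = convexHull ℝ (stdVerts n) := by
  apply Subset.antisymm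
  · intro x hx
    have h := comb_mem (s := stdVerts n) (fun i => (Pi.single i 1 : Fin n → ℝ))
      (mem_insert _ _) (fun i => mem_insert_of_mem _ ⟨i, rfl⟩) x hx
    have e : ∑ i, x i • (Pi.single i 1 : Fin n → ℝ) = x := by
      funext a
      simp [Finset.sum_apply, Pi.single_apply]
    rwa [e] at h
  · exact convexHull_min (stdVerts_subset n) (convex_stdS n)

private lemma repl_eq_sum (ω : Fin n → ℝ) (i : Fin n) (y : Fin n → ℝ) :
    repl ω i y = ∑ a, y a • (if a = i then ω else (Pi.single a 1 : Fin n → ℝ)) := by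
  funext b
  unfold repl
  rw [Finset.sum_apply]
  have h1 : ∀ a : Fin n, (y a • (if a = i then ω else (Pi.single a 1 : Fin n → ℝ))) b
      = (if a = b then y a else 0) + (if a = i then y i * (ω b - if b = i then 1 else 0) else 0) := by
    intro a
    by_cases hai : a = i
    · subst hai
      by_cases hab : a = b
      · subst hab; simp; ring
      · have hba : ¬ b = a := fun h => hab h.symm
        simp [hab, hba]
    · by_cases hab : a = b
      · subst hab; simp [hai]
      · have hba : ¬ b = a := fun h => hab h.symm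
        simp [hai, hab, hba]
  rw [Finset.sum_congr rfl (fun a _ => h1 a), Finset.sum_add_distrib]
  simp

private lemma repl_image_subset (ω : Fin n → ℝ) (i : Fin n) :
    repl ω i '' stdS n ⊆ hullW ω := by
  rintro _ ⟨y, hy, rfl⟩
  rw [repl_eq_sum]
  apply comb_mem _ _ _ y hy
  · exact mem_insert_of_mem _ (mem_insert _ _)
  · intro a
    by_cases h : a = i
    · simp [h]
    · simp only [h, if_false]
      exact mem_insert_of_mem _ (mem_insert_of_mem _ ⟨a, rfl⟩)

private lemma cover_aux (ω : Fin n → ℝ) (hω : ∑ i, ω i < 1) (y : Fin n → ℝ) (hy : y ∈ stdS n)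
    (t r : ℝ) (ht : 0 ≤ t) (hr : 0 ≤ r) (htr : t + r = 1) :
    t • ω + r • y ∈ stdS n ∪ ⋃ i ∈ {i : Fin n | ω i < 0}, repl ω i '' stdS n := by
  set x : Fin n → ℝ := t • ω + r • y with hx
  have hxa : ∀ a, x a = t * ω a + r * y a := fun a => by simp [hx]
  have hsum : ∑ a, x a = t * ∑ a, ω a + r * ∑ a, y a := by
    simp_rw [hxa]
    rw [Finset.sum_add_distrib, ← Finset.mul_sum, ← Finset.mul_sum]
  have hy1 := hy.1
  have hy2 := hy.2
  by_cases hpos : ∀ a, 0 ≤ x a
  · left
    refine ⟨hpos, ?_⟩
    rw [hsum]
    nlinarith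
  · right
    simp only [not_forall, not_le] at hpos
    obtain ⟨a0, ha0⟩ := hpos
    have hra0 : 0 ≤ r * y a0 := mul_nonneg hr (hy1 a0)
    have hωa0 : ω a0 < 0 := by
      by_contra hcon
      have : 0 ≤ t * ω a0 := mul_nonneg ht (not_lt.1 hcon)
      rw [hxa] at ha0
      linarith
    obtain ⟨i, hiI, himax⟩ := Finset.exists_max_image
      (Finset.univ.filter (fun a : Fin n => ω a < 0)) (fun a => x a / ω a)
      ⟨a0, by simp [hωa0]⟩
    have hi : ω i < 0 := by simpa using hiI
    set T := x i / ω i with hT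
    have hTi : T * ω i = x i := by rw [hT]; exact div_mul_cancel₀ _ hi.ne
    have hTpos : 0 < T := by
      have h1 : x a0 / ω a0 ≤ T := himax a0 (by simp [hωa0])
      have h2 : 0 < x a0 / ω a0 := div_pos_of_neg_of_neg ha0 hωa0
      linarith
    have hTt : T ≤ t := by
      have h1 : t * ω i ≤ x i := by
        rw [hxa]
        have := mul_nonneg hr (hy1 i)
        linarith
      rw [← hTi] at h1
      by_contra hcon
      have := mul_lt_mul_of_neg_right (not_le.1 hcon) hi
      linarith
    have hu : ∀ a, 0 ≤ x a - T * ω a := by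
      intro a
      by_cases ha : ω a < 0
      · have h1 : x a / ω a ≤ T := himax a (by simp [ha])
        rw [div_le_iff_of_neg ha] at h1
        linarith
      · have h1 : T * ω a ≤ t * ω a := mul_le_mul_of_nonneg_right hTt (not_lt.1 ha)
        have h2 := mul_nonneg hr (hy1 a)
        rw [hxa]
        linarith
    simp only [mem_iUnion]
    refine ⟨i, hi, fun a => x a - T * ω a + (if a = i then T else 0), ⟨fun a => ?_, ?_⟩, ?_⟩
    · have := hu a
      by_cases h : a = i
      · simp only [h, if_true]
        rw [h] at this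
        linarith
      · simp only [h, if_false]
        linarith
    · rw [Finset.sum_add_distrib, Finset.sum_sub_distrib, ← Finset.mul_sum, hsum]
      simp only [Finset.sum_ite_eq', Finset.mem_univ, if_true]
      have h1 : T * (1 - ∑ a, ω a) ≤ t * (1 - ∑ a, ω a) :=
        mul_le_mul_of_nonneg_right hTt (by linarith)
      nlinarith
    · funext a
      unfold repl
      simp only [if_true]
      rw [← hTi]
      by_cases h : a = i
      · subst h; simp; ring
      · simp [h]

/-- `hullW ω` is the union of the standard simplex and the simplices `repl ω i '' stdS n`,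
`ω i < 0`. -/
theorem hullW_eq (ω : Fin n → ℝ) (hω : ∑ i, ω i < 1) :
    hullW ω = stdS n ∪ ⋃ i ∈ {i : Fin n | ω i < 0}, repl ω i '' stdS n := by
  apply Subset.antisymm
  · intro x hx
    unfold hullW at hx
    have hne : (stdVerts n).Nonempty := ⟨0, mem_insert _ _⟩
    rw [convexHull_insert hne, ← stdS_eq_convexHull, mem_convexJoin] at hx
    obtain ⟨w', hw', y, hy, hxy⟩ := hx
    rw [mem_singleton_iff] at hw'
    subst hw'
    obtain ⟨t, r, ht, hr, htr, rfl⟩ := hxy
    exact cover_aux w' hω y hy t r ht hr htr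
  · apply union_subset
    · rw [stdS_eq_convexHull]
      exact convexHull_mono (subset_insert _ _)
    · intro x hx
      simp only [mem_iUnion] at hx
      obtain ⟨i, _, hx⟩ := hx
      exact repl_image_subset ω i hx

theorem stdS_inter_repl (ω : Fin n → ℝ) (i : Fin n) (hi : ω i < 0) :
    stdS n ∩ repl ω i '' stdS n ⊆ {x | x i = 0} := by
  rintro x ⟨hx, y, hy, rfl⟩
  have h1 := hx.1 i
  have h2 := hy.1 i
  simp only [repl, if_true] at h1 ⊢
  simp only [mem_ofPred_eq, repl, if_true]
  nlinarith

theorem repl_inter_repl (ω : Fin n → ℝ) (i j : Fin n) (hi : ω i < 0) (hj : ω j < 0) :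
    repl ω i '' stdS n ∩ repl ω j '' stdS n ⊆ {x | x i * ω j = x j * ω i} := by
  rintro x ⟨⟨y, hy, rfl⟩, z, hz, hzy⟩
  by_cases hij : i = j
  · subst hij; rfl
  have hji : ¬ j = i := fun h => hij h.symm
  have e1 := congrFun hzy i
  have e2 := congrFun hzy j
  have y1 := hy.1 j
  have z1 := hz.1 i
  simp only [repl, if_true, hij, hji, if_false] at e1 e2
  simp only [mem_ofPred_eq, repl, if_true, hji, if_false]
  have a1 : y j * ω i ≤ 0 := mul_nonpos_of_nonneg_of_nonpos y1 hi.le
  have a2 : z i * ω j ≤ 0 := mul_nonpos_of_nonneg_of_nonpos z1 hj.le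
  apply le_antisymm
  · nlinarith
  · nlinarith

end Vale.Agent.Lib.P254
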