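import Vale.Agent.Lib.P254.Few.Basic

/-! F2: change of variables for invertible affine maps; affine invariance of `ratio`. -/

namespace Vale.Agent.Lib.P254

open MeasureTheory Set

variable {n : ℕ}

theorem setIntegral_image_linearEquiv (L : (Fin n → ℝ) ≃ₗ[ℝ] (Fin n → ℝ))
    (s : Set (Fin n → ℝ)) (g : (Fin n → ℝ) → ℝ) :
    ∫ y in L '' s, g y
      = |LinearMap.det (L : (Fin n → ℝ) →ₗ[ℝ] (Fin n → ℝ))| * ∫ x in s, g (L x) := by
  have hdet : LinearMap.det (L : (Fin n → ℝ) →ₗ[ℝ] (Fin n → ℝ)) ≠ 0 :=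
    (LinearEquiv.isUnit_det' L).ne_zero
  have hmap := Measure.map_linearMap_addHaar_eq_smul_addHaar
    (volume : Measure (Fin n → ℝ)) hdet
  have hemb : MeasurableEmbedding (L : (Fin n → ℝ) → (Fin n → ℝ)) :=
    (L.toContinuousLinearEquiv.toHomeomorph.measurableEmbedding)
  have h1 := hemb.setIntegral_map (μ := (volume : Measure (Fin n → ℝ))) g (L '' s)
  have hpre : (L : (Fin n → ℝ) → (Fin n → ℝ)) ⁻¹' (L '' s) = s :=
    preimage_image_eq s L.injective
  rw [hpre] at h1
  have hmap' : Measure.map (L : (Fin n → ℝ) → (Fin n → ℝ)) (volume : Measure (Fin n → ℝ))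
      = ENNReal.ofReal |(LinearMap.det (L : (Fin n → ℝ) →ₗ[ℝ] (Fin n → ℝ)))⁻¹| • volume := hmap
  rw [hmap', Measure.restrict_smul, integral_smul_measure] at h1
  rw [← h1, ENNReal.toReal_ofReal (abs_nonneg _), abs_inv, smul_eq_mul, ← mul_assoc,
    mul_inv_cancel₀ (abs_ne_zero.mpr hdet), one_mul]

theorem setIntegral_image_affine (L : (Fin n → ℝ) ≃ₗ[ℝ] (Fin n → ℝ)) (c : Fin n → ℝ)
    (s : Set (Fin n → ℝ)) (g : (Fin n → ℝ) → ℝ) :
    ∫ y in (fun x => L x + c) '' s, g y
      = |LinearMap.det (L : (Fin n → ℝ) →ₗ[ℝ] (Fin n → ℝ))| * ∫ x in s, g (L x + c) := by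
  have himg : (fun x => L x + c) '' s = (fun y => y + c) '' (L '' s) := by
    rw [image_image]
  have hemb : MeasurableEmbedding (fun y : Fin n → ℝ => y + c) :=
    (Homeomorph.addRight c).measurableEmbedding
  have hmp : MeasurePreserving (fun y : Fin n → ℝ => y + c) volume volume :=
    measurePreserving_add_right volume c
  have h1 := hmp.setIntegral_image_emb hemb g (L '' s)
  rw [himg, h1, setIntegral_image_linearEquiv L s (fun y => g (y + c))]

end Vale.Agent.Lib.P254
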