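import Vale.Agent.Lib.P254.Few.Basic

/-! F1: moments of the standard corner simplex. -/

namespace Vale.Agent.Lib.P254

open MeasureTheory Set
open scoped Pointwise

theorem isClosed_stdS (n : ℕ) : IsClosed (stdS n) := by
  have h1 : stdS n = (⋂ i, {x : Fin n → ℝ | 0 ≤ x i}) ∩ {x | ∑ i, x i ≤ 1} := by
    ext x; simp [stdS]
  rw [h1]
  refine IsClosed.inter (isClosed_iInter fun i => ?_) ?_
  · exact isClosed_le continuous_const (continuous_apply i)
  · exact isClosed_le (continuous_finsetSum _ fun i _ => continuous_apply i) continuous_const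

theorem stdS_subset_Icc (n : ℕ) : stdS n ⊆ Icc (0 : Fin n → ℝ) 1 := by
  intro x hx
  refine ⟨fun i => hx.1 i, fun i => ?_⟩
  have := Finset.single_le_sum (f := x) (fun j _ => hx.1 j) (Finset.mem_univ i)
  exact this.trans hx.2

theorem isCompact_stdS (n : ℕ) : IsCompact (stdS n) :=
  isCompact_Icc.of_isClosed_subset (isClosed_stdS n) (stdS_subset_Icc n)

/-- the product model of `stdS (n+1)` -/
def prodS (n : ℕ) : Set (ℝ × (Fin n → ℝ)) :=
  {p | 0 ≤ p.1 ∧ (∀ j, 0 ≤ p.2 j) ∧ p.1 + ∑ j, p.2 j ≤ 1}

theorem preimage_prodS (n : ℕ) (a : Fin (n + 1)) :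
    (MeasurableEquiv.piFinSuccAbove (fun _ : Fin (n + 1) => ℝ) a) ⁻¹' prodS n = stdS (n + 1) := by
  ext x
  simp only [mem_preimage, prodS, stdS, mem_ofPred_eq, MeasurableEquiv.piFinSuccAbove_apply,
    Fin.insertNthEquiv_symm_apply, Fin.forall_iff_succAbove a, Fin.sum_univ_succAbove _ a]
  simp [Fin.removeNth, and_assoc]

theorem mem_prodS_iff (n : ℕ) {t : ℝ} (ht : t < 1) (y : Fin n → ℝ) :
    (t, y) ∈ prodS n ↔ 0 ≤ t ∧ y ∈ (1 - t) • stdS n := by
  have h1 : 0 < 1 - t := by linarith
  constructor
  · rintro ⟨h0, hy, hs⟩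
    refine ⟨h0, (1 - t)⁻¹ • y, ⟨fun j => ?_, ?_⟩, ?_⟩
    · simp only [Pi.smul_apply, smul_eq_mul]
      exact mul_nonneg (inv_nonneg.2 h1.le) (hy j)
    · simp only [Pi.smul_apply, smul_eq_mul, ← Finset.mul_sum]
      rw [inv_mul_le_iff₀ h1]
      simp only at hs
      linarith
    · show (1 - t) • ((1 - t)⁻¹ • y) = y
      rw [smul_smul, mul_inv_cancel₀ h1.ne', one_smul]
  · rintro ⟨h0, z, ⟨hz, hs⟩, rfl⟩
    refine ⟨h0, fun j => ?_, ?_⟩
    · simp only [Pi.smul_apply, smul_eq_mul]
      exact mul_nonneg h1.le (hz j)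
    · simp only [Pi.smul_apply, smul_eq_mul, ← Finset.mul_sum]
      nlinarith

theorem not_mem_prodS (n : ℕ) {t : ℝ} (ht : t < 0 ∨ 1 < t) (y : Fin n → ℝ) :
    (t, y) ∉ prodS n := by
  rintro ⟨h0, hy, hs⟩
  rcases ht with h | h
  · exact absurd h0 (not_le.2 h)
  · have : 0 ≤ ∑ j, y j := Finset.sum_nonneg fun j _ => hy j
    simp only at hs
    linarith


theorem isCompact_prodS (n : ℕ) : IsCompact (prodS n) := by
  have h : prodS n = (MeasurableEquiv.piFinSuccAbove (fun _ : Fin (n + 1) => ℝ) 0) '' stdS (n + 1) := by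
    rw [← preimage_prodS n 0, image_preimage_eq _ (MeasurableEquiv.surjective _)]
  rw [h]
  refine (isCompact_stdS (n + 1)).image ?_
  have : (MeasurableEquiv.piFinSuccAbove (fun _ : Fin (n + 1) => ℝ) 0 : (Fin (n + 1) → ℝ) → ℝ × (Fin n → ℝ))
      = fun x => (x 0, fun j => x (Fin.succAbove 0 j)) := by
    funext x
    rfl
  rw [this]
  exact (continuous_apply 0).prodMk (continuous_pi fun j => continuous_apply _)

/-- slicing the standard simplex along the coordinate `a` -/
theorem slice_stdS (n : ℕ) (a : Fin (n + 1)) (k D : ℕ) (h : (Fin n → ℝ) → ℝ) (hc : Continuous h)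
    (hhom : ∀ s : ℝ, 0 < s → ∀ y, h (s • y) = s ^ D * h y) :
    ∫ x in stdS (n + 1), x a ^ k * h (fun j => x (a.succAbove j))
      = (∫ t in (0 : ℝ)..1, t ^ k * (1 - t) ^ (n + D)) * ∫ y in stdS n, h y := by
  set e := MeasurableEquiv.piFinSuccAbove (fun _ : Fin (n + 1) => ℝ) a with he
  have hmp : MeasurePreserving e volume (volume.prod volume) :=
    volume_preserving_piFinSuccAbove (fun _ : Fin (n + 1) => ℝ) a
  set F : ℝ × (Fin n → ℝ) → ℝ := fun p => p.1 ^ k * h p.2 with hF
  have hFc : Continuous F := (continuous_fst.pow k).mul (hc.comp continuous_snd)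
  have hC := isCompact_prodS n
  have hCm : MeasurableSet (prodS n) := hC.measurableSet
  have hint : IntegrableOn F (prodS n) (volume.prod volume) :=
    hFc.continuousOn.integrableOn_compact hC
  have h1 : ∫ x in stdS (n + 1), x a ^ k * h (fun j => x (a.succAbove j))
      = ∫ p in prodS n, F p ∂(volume.prod volume) := by
    rw [← hmp.setIntegral_preimage_emb e.measurableEmbedding F (prodS n), he, preimage_prodS]
    rfl
  rw [h1, ← integral_indicator hCm, integral_prod _ (hint.integrable_indicator hCm)]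
  set I : ℝ := ∫ y in stdS n, h y with hI
  have hB := isCompact_stdS n
  have hinner : ∀ t : ℝ, t ≠ 0 → t ≠ 1 →
      ∫ y : Fin n → ℝ, (prodS n).indicator F (t, y)
        = (Ioc (0 : ℝ) 1).indicator (fun t => t ^ k * (1 - t) ^ (n + D) * I) t := by
    intro t h0 ht1
    by_cases ht : t ∈ Ioc (0 : ℝ) 1
    · rw [indicator_of_mem ht]
      have ht' : t < 1 := lt_of_le_of_ne ht.2 ht1
      have hs : 0 < 1 - t := by linarith
      have e1 : (fun y : Fin n → ℝ => (prodS n).indicator F (t, y))
          = ((1 - t) • stdS n).indicator (fun y => t ^ k * h y) := by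
        funext y
        by_cases hy : y ∈ (1 - t) • stdS n
        · rw [indicator_of_mem hy, indicator_of_mem]
          exact (mem_prodS_iff n ht' y).2 ⟨ht.1.le, hy⟩
        · rw [indicator_of_notMem hy, indicator_of_notMem]
          intro hcon
          exact hy ((mem_prodS_iff n ht' y).1 hcon).2
      rw [e1, integral_indicator ((hB.smul (1 - t)).measurableSet), integral_const_mul]
      have e2 := Measure.setIntegral_comp_smul_of_pos (volume : Measure (Fin n → ℝ))
        h (stdS n) hs
      rw [Module.finrank_fintype_fun_eq_card, Fintype.card_fin] at e2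
      have e3 : ∫ y in stdS n, h ((1 - t) • y) = (1 - t) ^ D * I := by
        rw [hI, ← integral_const_mul]
        refine integral_congr_ae (Filter.Eventually.of_forall fun y => ?_)
        simp only [hhom (1 - t) hs]
      rw [e3, smul_eq_mul] at e2
      have hspos : (0 : ℝ) < (1 - t) ^ n := pow_pos hs _
      rw [pow_add]
      field_simp at e2
      rw [← e2]
      ring
    · rw [indicator_of_notMem ht]
      have hs' : t < 0 ∨ 1 < t := by
        by_contra hcon
        rw [not_or, not_lt, not_lt] at hcon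
        exact ht ⟨lt_of_le_of_ne hcon.1 (Ne.symm h0), hcon.2⟩
      have : (fun y : Fin n → ℝ => (prodS n).indicator F (t, y)) = fun _ => 0 := by
        funext y
        rw [indicator_of_notMem]
        exact not_mem_prodS n hs' y
      rw [this]; simp
  have hae : (fun t : ℝ => ∫ y : Fin n → ℝ, (prodS n).indicator F (t, y))
      =ᵐ[volume] (Ioc (0 : ℝ) 1).indicator (fun t => t ^ k * (1 - t) ^ (n + D) * I) := by
    have h0 : ∀ᵐ t : ℝ ∂volume, t ≠ 0 := by
      rw [ae_iff]; simp
    have h1 : ∀ᵐ t : ℝ ∂volume, t ≠ 1 := by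
      rw [ae_iff]; simp
    filter_upwards [h0, h1] with t ht0 ht1 using hinner t ht0 ht1
  rw [integral_congr_ae hae, integral_indicator measurableSet_Ioc,
    ← intervalIntegral.integral_of_le zero_le_one, intervalIntegral.integral_mul_const]

theorem beta0 (m : ℕ) : ∫ t in (0 : ℝ)..1, t ^ 0 * (1 - t) ^ m = 1 / ((m : ℝ) + 1) := by
  have h := intervalIntegral.integral_comp_sub_left (a := (0 : ℝ)) (b := 1)
    (fun u : ℝ => (1 - u) ^ 0 * u ^ m) 1
  simp only [sub_sub_cancel, sub_self, sub_zero] at h
  rw [h]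
  simp [integral_pow]

theorem beta1 (m : ℕ) :
    ∫ t in (0 : ℝ)..1, t ^ 1 * (1 - t) ^ m = 1 / (((m : ℝ) + 1) * ((m : ℝ) + 2)) := by
  have h := intervalIntegral.integral_comp_sub_left (a := (0 : ℝ)) (b := 1)
    (fun u : ℝ => (1 - u) ^ 1 * u ^ m) 1
  simp only [sub_sub_cancel, sub_self, sub_zero] at h
  rw [h]
  have e : ∀ u : ℝ, (1 - u) ^ 1 * u ^ m = u ^ m - u ^ (m + 1) := fun u => by ring
  simp only [e]
  rw [intervalIntegral.integral_sub (intervalIntegral.intervalIntegrable_pow _)
    (intervalIntegral.intervalIntegrable_pow _), integral_pow, integral_pow]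
  simp
  field_simp
  ring

theorem beta2 (m : ℕ) :
    ∫ t in (0 : ℝ)..1, t ^ 2 * (1 - t) ^ m
      = 2 / (((m : ℝ) + 1) * ((m : ℝ) + 2) * ((m : ℝ) + 3)) := by
  have h := intervalIntegral.integral_comp_sub_left (a := (0 : ℝ)) (b := 1)
    (fun u : ℝ => (1 - u) ^ 2 * u ^ m) 1
  simp only [sub_sub_cancel, sub_self, sub_zero] at h
  rw [h]
  have e : ∀ u : ℝ, (1 - u) ^ 2 * u ^ m = u ^ m - 2 * u ^ (m + 1) + u ^ (m + 2) := fun u => by ring
  simp only [e]
  rw [intervalIntegral.integral_add ((intervalIntegral.intervalIntegrable_pow _).sub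
    ((intervalIntegral.intervalIntegrable_pow _).const_mul _))
    (intervalIntegral.intervalIntegrable_pow _),
    intervalIntegral.integral_sub (intervalIntegral.intervalIntegrable_pow _)
    ((intervalIntegral.intervalIntegrable_pow _).const_mul _),
    intervalIntegral.integral_const_mul, integral_pow, integral_pow, integral_pow]
  simp
  field_simp
  ring

theorem int_one_stdS (n : ℕ) : ∫ _x in stdS n, (1 : ℝ) = 1 / (n.factorial : ℝ) := by
  induction n with
  | zero =>
    have h : stdS 0 = univ := by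
      ext x; simp [stdS]
    rw [h]
    simp [volume_pi, Measure.real]
  | succ n ih =>
    have h := slice_stdS n 0 0 0 (fun _ => (1 : ℝ)) continuous_const (fun s _ y => by simp)
    simp only [pow_zero, one_mul] at h
    have hb := beta0 n
    simp only [pow_zero, one_mul] at hb
    rw [h, ih, add_zero, hb, Nat.factorial_succ]
    push_cast
    field_simp

theorem vol_stdS (n : ℕ) : vol (stdS n) = 1 / (n.factorial : ℝ) := by
  rw [← int_one_stdS n]
  simp [vol, Measure.real]

theorem m1_stdS (n : ℕ) (a : Fin n) :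
    ∫ x in stdS n, x a = 1 / ((n + 1).factorial : ℝ) := by
  cases n with
  | zero => exact a.elim0
  | succ n =>
    have h := slice_stdS n a 1 0 (fun _ => (1 : ℝ)) continuous_const (fun s _ y => by simp)
    simp only [mul_one, add_zero] at h
    simp only [pow_one] at h
    have hb := beta1 n
    simp only [pow_one] at hb
    rw [h, hb, int_one_stdS, Nat.factorial_succ, Nat.factorial_succ]
    push_cast
    field_simp
    ring

theorem m2_stdS (n : ℕ) (a b : Fin n) :
    ∫ x in stdS n, x a * x b = (if a = b then 2 else 1) / ((n + 2).factorial : ℝ) := by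
  cases n with
  | zero => exact a.elim0
  | succ n =>
    by_cases hab : a = b
    · subst hab
      have h := slice_stdS n a 2 0 (fun _ => (1 : ℝ)) continuous_const (fun s _ y => by simp)
      simp only [mul_one, add_zero] at h
      have e : ∀ x : Fin (n + 1) → ℝ, x a * x a = x a ^ 2 := fun x => by ring
      simp only [e, if_true]
      rw [h, beta2, int_one_stdS, Nat.factorial_succ, Nat.factorial_succ, Nat.factorial_succ]
      push_cast
      field_simp
      ring
    · obtain ⟨j, rfl⟩ := Fin.exists_succAbove_eq (Ne.symm hab)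
      have h := slice_stdS n a 1 1 (fun y => y j) (continuous_apply j)
        (fun s _ y => by simp)
      simp only [pow_one] at h
      have hb := beta1 (n + 1)
      simp only [pow_one] at hb
      rw [if_neg hab, h, hb, m1_stdS, Nat.factorial_succ (n + 1 + 1), Nat.factorial_succ (n + 1)]
      push_cast
      field_simp
      ring

end Vale.Agent.Lib.P254
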