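import Vale.Agent.Lib.P254.Few.Cover
import Vale.Agent.Lib.P254.Few.LinChange
import Vale.Agent.Lib.P254.Few.StdMoments

/-! F5: integral over `hullW ω` as a sum of integrals over the standard simplex. -/

namespace Vale.Agent.Lib.P254

open MeasureTheory Set

variable {n : ℕ}

/-- matrix of `repl ω i` -/
noncomputable def replMat (ω : Fin n → ℝ) (i : Fin n) : Matrix (Fin n) (Fin n) ℝ :=
  1 + Matrix.replicateCol Unit (fun a => ω a - if a = i then 1 else 0)
    * Matrix.replicateRow Unit (Pi.single i (1 : ℝ))

theorem det_replMat (ω : Fin n → ℝ) (i : Fin n) : (replMat ω i).det = ω i := by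
  unfold replMat
  rw [Matrix.det_one_add_replicateCol_mul_replicateRow]
  simp

theorem toLin_replMat (ω : Fin n → ℝ) (i : Fin n) (x : Fin n → ℝ) :
    Matrix.toLin' (replMat ω i) x = repl ω i x := by
  funext a
  simp only [Matrix.toLin'_apply, replMat, Matrix.add_mulVec, Matrix.one_mulVec, Pi.add_apply, repl]
  congr 1
  simp only [Matrix.mulVec, dotProduct, Matrix.mul_apply, Matrix.replicateCol_apply,
    Matrix.replicateRow_apply, Finset.univ_unique, Finset.sum_singleton]
  rw [Finset.sum_eq_single i]
  · simp; ring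
  · intro b _ hb
    simp [Pi.single_apply, hb]
  · intro h; exact absurd (Finset.mem_univ i) h

theorem continuous_repl (ω : Fin n → ℝ) (i : Fin n) : Continuous (repl ω i) := by
  refine continuous_pi fun a => ?_
  unfold repl
  exact (continuous_apply a).add ((continuous_apply i).mul continuous_const)

/-- change of variables for `repl ω i` (determinant `ω i`) -/
theorem setIntegral_repl (ω : Fin n → ℝ) (i : Fin n) (hi : ω i ≠ 0)
    (s : Set (Fin n → ℝ)) (g : (Fin n → ℝ) → ℝ) :
    ∫ y in repl ω i '' s, g y = |ω i| * ∫ x in s, g (repl ω i x) := by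
  have hdet : LinearMap.det (Matrix.toLin' (replMat ω i)) = ω i := by
    rw [LinearMap.det_toLin', det_replMat]
  have hne : LinearMap.det (Matrix.toLin' (replMat ω i)) ≠ 0 := by rw [hdet]; exact hi
  set L := LinearMap.equivOfDetNeZero (Matrix.toLin' (replMat ω i)) hne with hL
  have hLx : ∀ x, L x = repl ω i x := by
    intro x
    rw [← toLin_replMat]
    rfl
  have hLc : (L : (Fin n → ℝ) →ₗ[ℝ] (Fin n → ℝ)) = Matrix.toLin' (replMat ω i) := by
    ext1 x
    rfl
  have := setIntegral_image_linearEquiv L s g
  rw [hLc, hdet] at this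
  have him : L '' s = repl ω i '' s := by
    ext y; simp only [mem_image, hLx]
  rw [him] at this
  rw [this]
  simp only [hLx]

theorem isCompact_hullW (ω : Fin n → ℝ) : IsCompact (hullW ω) := by
  unfold hullW stdVerts
  exact (((finite_range _).insert 0).insert ω).isCompact_convexHull (𝕜 := ℝ)

theorem null_ker (l : (Fin n → ℝ) →ₗ[ℝ] ℝ) (x0 : Fin n → ℝ) (h : l x0 ≠ 0) :
    volume {x : Fin n → ℝ | l x = 0} = 0 := by
  have : ({x : Fin n → ℝ | l x = 0} : Set (Fin n → ℝ)) = (LinearMap.ker l : Set (Fin n → ℝ)) := by
    ext x; simp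
  rw [this]
  apply Measure.addHaar_submodule
  intro htop
  have : x0 ∈ LinearMap.ker l := by rw [htop]; trivial
  exact h (by simpa using this)

/-- the pieces of the triangulation -/
def piece (ω : Fin n → ℝ) : Option (Fin n) → Set (Fin n → ℝ)
  | none => stdS n
  | some i => {y | ω i < 0 ∧ y ∈ repl ω i '' stdS n}

theorem piece_some_neg (ω : Fin n → ℝ) (i : Fin n) (hi : ω i < 0) :
    piece ω (some i) = repl ω i '' stdS n := by
  ext y; simp [piece, hi]

theorem piece_some_nonneg (ω : Fin n → ℝ) (i : Fin n) (hi : ¬ ω i < 0) :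
    piece ω (some i) = ∅ := by
  ext y; simp [piece, hi]

theorem isCompact_piece (ω : Fin n → ℝ) (k : Option (Fin n)) : IsCompact (piece ω k) := by
  rcases k with _ | i
  · exact isCompact_stdS n
  · by_cases hi : ω i < 0
    · rw [piece_some_neg ω i hi]
      exact (isCompact_stdS n).image (continuous_repl ω i)
    · rw [piece_some_nonneg ω i hi]; exact isCompact_empty

theorem hullW_eq_iUnion (ω : Fin n → ℝ) (hω : ∑ i, ω i < 1) : hullW ω = ⋃ k, piece ω k := by
  rw [hullW_eq ω hω]
  ext y
  simp only [mem_union, mem_iUnion, mem_setOf_eq, exists_prop]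
  constructor
  · rintro (h | ⟨i, hi, h⟩)
    · exact ⟨none, h⟩
    · exact ⟨some i, hi, h⟩
  · rintro ⟨k, hk⟩
    rcases k with _ | i
    · exact Or.inl hk
    · exact Or.inr ⟨i, hk.1, hk.2⟩

theorem aedisjoint_piece (ω : Fin n → ℝ) :
    Pairwise (Function.onFun (AEDisjoint (volume : Measure (Fin n → ℝ))) (piece ω)) := by
  have key0 : ∀ i, volume (piece ω none ∩ piece ω (some i)) = 0 := by
    intro i
    by_cases hi : ω i < 0
    · rw [piece_some_neg ω i hi]
      refine measure_mono_null (stdS_inter_repl ω i hi) ?_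
      exact null_ker (LinearMap.proj i) (Pi.single i 1) (by simp)
    · rw [piece_some_nonneg ω i hi]; simp
  intro k l hkl
  rcases k with _ | i <;> rcases l with _ | j
  · exact absurd rfl hkl
  · exact key0 j
  · show volume (piece ω (some i) ∩ piece ω none) = 0
    rw [inter_comm]; exact key0 i
  · show volume (piece ω (some i) ∩ piece ω (some j)) = 0
    have hij : i ≠ j := fun h => hkl (by rw [h])
    by_cases hi : ω i < 0
    · by_cases hj : ω j < 0
      · rw [piece_some_neg ω i hi, piece_some_neg ω j hj]
        refine measure_mono_null (repl_inter_repl ω i j hi hj) ?_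
        have := null_ker (ω j • LinearMap.proj i - ω i • LinearMap.proj j) (Pi.single i 1)
          (by simp [Pi.single_apply, hij.symm, hj.ne])
        refine measure_mono_null ?_ this
        intro x hx
        simp only [mem_setOf_eq] at hx
        simp only [mem_setOf_eq, LinearMap.sub_apply, LinearMap.smul_apply, LinearMap.proj_apply,
          smul_eq_mul]
        linarith
      · rw [piece_some_nonneg ω j hj]; simp
    · rw [piece_some_nonneg ω i hi]; simp

theorem integral_hullW (ω : Fin n → ℝ) (hω : ∑ i, ω i < 1) (f : (Fin n → ℝ) → ℝ)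
    (hf : Continuous f) :
    ∫ x in hullW ω, f x
      = (∫ x in stdS n, f x) + ∑ i, eta ω i * ∫ x in stdS n, f (repl ω i x) := by
  have hint : IntegrableOn f (⋃ k, piece ω k) volume := by
    rw [← hullW_eq_iUnion ω hω]
    exact hf.continuousOn.integrableOn_compact (isCompact_hullW ω)
  have h1 := integral_iUnion_ae (f := f)
    (fun k => (isCompact_piece ω k).measurableSet.nullMeasurableSet) (aedisjoint_piece ω) hint
  have h2 : ∀ i, ∫ x in piece ω (some i), f x = eta ω i * ∫ x in stdS n, f (repl ω i x) := by
    intro i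
    by_cases hi : ω i < 0
    · rw [piece_some_neg ω i hi, setIntegral_repl ω i hi.ne]
      congr 1
      unfold eta
      rw [abs_of_neg hi, max_eq_left (by linarith)]
    · rw [piece_some_nonneg ω i hi]
      unfold eta
      rw [max_eq_right (by linarith)]
      simp
  rw [hullW_eq_iUnion ω hω, h1, tsum_fintype, Fintype.sum_option]
  have h3 : piece ω none = stdS n := rfl
  simp only [h2, h3]

end Vale.Agent.Lib.P254
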