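import Vale.Agent.Lib.P254.Few.Basic

/-! F7: determinant of `Cmat ω` (rank three update of the identity). Pure linear algebra. -/

namespace Vale.Agent.Lib.P254

variable {n : ℕ}

theorem eta_nonneg (ω : Fin n → ℝ) (i : Fin n) : 0 ≤ eta ω i := le_max_right _ _

theorem sS_pos (ω : Fin n → ℝ) : 1 ≤ sS ω := by
  unfold sS
  have : 0 ≤ ∑ i, eta ω i := Finset.sum_nonneg fun i _ => eta_nonneg ω i
  linarith

theorem omega_mul_eta (ω : Fin n → ℝ) (a : Fin n) : ω a * eta ω a = -(eta ω a) ^ 2 := by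
  unfold eta
  rcases le_total (-(ω a)) 0 with h | h
  · rw [max_eq_right h]; ring
  · rw [max_eq_left h]; ring

theorem max_eq_add_eta (ω : Fin n → ℝ) (a : Fin n) : max (ω a) 0 = ω a + eta ω a := by
  unfold eta
  rcases le_total (ω a) 0 with h | h
  · rw [max_eq_right h, max_eq_left (by linarith)]; ring
  · rw [max_eq_left h, max_eq_right (by linarith)]; ring

/-- the `n × 3` matrix `[ω, o, Y]` -/
noncomputable def Umat (ω : Fin n → ℝ) : Matrix (Fin n) (Fin 3) ℝ :=
  fun a k => ![ω a, radonPt ω a, 1 + ω a - radonPt ω a] k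

/-- the `3 × n` matrix `[ω; -o; -Y/(n+1)]` -/
noncomputable def Vmat (ω : Fin n → ℝ) : Matrix (Fin 3) (Fin n) ℝ :=
  fun k b => ![ω b, -radonPt ω b, -(1 + ω b - radonPt ω b) / ((n : ℝ) + 1)] k

theorem Cmat_eq (ω : Fin n → ℝ) : Cmat ω = 1 + Umat ω * Vmat ω := by
  ext a b
  simp only [Cmat, Matrix.add_apply, Matrix.mul_apply, Fin.sum_univ_three, Umat, Vmat,
    Matrix.one_apply]
  simp
  ring

theorem det_Cmat (ω : Fin n → ℝ) :
    (Cmat ω).det = sS ω ^ 2 / ((n : ℝ) + 1) * thetaW ω := by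
  rw [Cmat_eq, Matrix.det_one_add_mul_comm]
  set s := sS ω with hs
  have hs1 : 1 ≤ s := sS_pos ω
  have hs0 : s ≠ 0 := by positivity
  set c := s⁻¹ with hc
  have hcs : c * s = 1 := inv_mul_cancel₀ hs0
  set Sw := ∑ a, ω a with hSw
  set p := ∑ a, ω a ^ 2 with hp
  set B := ∑ a, eta ω a ^ 2 with hB
  have hE : ∑ a, eta ω a = s - 1 := by rw [hs]; unfold sS; ring
  have ho : ∀ a, radonPt ω a = c * (ω a + eta ω a) := by
    intro a; unfold radonPt; rw [hc, ← hs]; field_simp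
  have hn1 : (n : ℝ) + 1 ≠ 0 := by positivity
  -- Gram entries
  have g_ww : ∑ a, ω a * ω a = p := by
    rw [hp]; exact Finset.sum_congr rfl fun a _ => by ring
  have g_wo : ∑ a, ω a * radonPt ω a = c * (p - B) := by
    have : ∀ a, ω a * radonPt ω a = c * (ω a ^ 2 - eta ω a ^ 2) := by
      intro a; rw [ho]; linear_combination c * omega_mul_eta ω a
    simp only [this, ← Finset.mul_sum, Finset.sum_sub_distrib, ← hp, ← hB]
  have g_oo : ∑ a, radonPt ω a * radonPt ω a = c ^ 2 * (p - B) := by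
    have : ∀ a, radonPt ω a * radonPt ω a = c ^ 2 * (ω a ^ 2 - eta ω a ^ 2) := by
      intro a; rw [ho]; linear_combination 2 * c ^ 2 * omega_mul_eta ω a
    simp only [this, ← Finset.mul_sum, Finset.sum_sub_distrib, ← hp, ← hB]
  have g_1o : ∑ a, radonPt ω a = c * (Sw + (s - 1)) := by
    simp only [ho, ← Finset.mul_sum, Finset.sum_add_distrib, hE, ← hSw]
  have g_wY : ∑ a, ω a * (1 + ω a - radonPt ω a) = Sw + p - c * (p - B) := by
    have : ∀ a, ω a * (1 + ω a - radonPt ω a) = ω a + ω a * ω a - ω a * radonPt ω a := by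
      intro a; ring
    simp only [this, Finset.sum_sub_distrib, Finset.sum_add_distrib, g_ww, g_wo, ← hSw]
  have g_oY : ∑ a, radonPt ω a * (1 + ω a - radonPt ω a)
      = c * (Sw + (s - 1)) + c * (p - B) - c ^ 2 * (p - B) := by
    have : ∀ a, radonPt ω a * (1 + ω a - radonPt ω a)
        = radonPt ω a + ω a * radonPt ω a - radonPt ω a * radonPt ω a := by
      intro a; ring
    simp only [this, Finset.sum_sub_distrib, Finset.sum_add_distrib, g_oo, g_wo, g_1o]
  have g_YY : ∑ a, (1 + ω a - radonPt ω a) * (1 + ω a - radonPt ω a)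
      = n + p + c ^ 2 * (p - B) + 2 * Sw - 2 * (c * (Sw + (s - 1))) - 2 * (c * (p - B)) := by
    have : ∀ a, (1 + ω a - radonPt ω a) * (1 + ω a - radonPt ω a)
        = 1 + ω a * ω a + radonPt ω a * radonPt ω a + 2 * ω a - 2 * radonPt ω a
          - 2 * (ω a * radonPt ω a) := by
      intro a; ring
    simp only [this, Finset.sum_sub_distrib, Finset.sum_add_distrib, ← Finset.mul_sum, g_ww, g_oo,
      g_wo, g_1o, ← hSw]
    simp
  have hmax : ∑ a, (max (ω a) 0) ^ 2 = p - B := by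
    have : ∀ a, (max (ω a) 0) ^ 2 = ω a ^ 2 - eta ω a ^ 2 := by
      intro a; rw [max_eq_add_eta]; linear_combination 2 * omega_mul_eta ω a
    simp only [this, Finset.sum_sub_distrib, ← hp, ← hB]
  -- entries of V * U
  have e00 : (Vmat ω * Umat ω) 0 0 = p := by
    simp [Matrix.mul_apply, Umat, Vmat, g_ww]
  have e01 : (Vmat ω * Umat ω) 0 1 = c * (p - B) := by
    simp [Matrix.mul_apply, Umat, Vmat, g_wo]
  have e02 : (Vmat ω * Umat ω) 0 2 = Sw + p - c * (p - B) := by
    simp [Matrix.mul_apply, Umat, Vmat, g_wY]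
  have e10 : (Vmat ω * Umat ω) 1 0 = -(c * (p - B)) := by
    have : ∀ a, -radonPt ω a * ω a = -(ω a * radonPt ω a) := by intro a; ring
    simp [Matrix.mul_apply, Umat, Vmat, this, Finset.sum_neg_distrib, g_wo]
  have e11 : (Vmat ω * Umat ω) 1 1 = -(c ^ 2 * (p - B)) := by
    have : ∀ a, -radonPt ω a * radonPt ω a = -(radonPt ω a * radonPt ω a) := by intro a; ring
    simp [Matrix.mul_apply, Umat, Vmat, this, Finset.sum_neg_distrib, g_oo]
  have e12 : (Vmat ω * Umat ω) 1 2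
      = -(c * (Sw + (s - 1)) + c * (p - B) - c ^ 2 * (p - B)) := by
    have : ∀ a, -radonPt ω a * (1 + ω a - radonPt ω a)
        = -(radonPt ω a * (1 + ω a - radonPt ω a)) := by intro a; ring
    simp only [Matrix.mul_apply, Umat, Vmat, Matrix.cons_val_one, Matrix.cons_val_two,
      Matrix.cons_val_zero, Matrix.head_cons, Matrix.tail_cons]
    simp only [Matrix.cons_val, this, Finset.sum_neg_distrib, g_oY]
  have e20 : (Vmat ω * Umat ω) 2 0 = -(Sw + p - c * (p - B)) / ((n : ℝ) + 1) := by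
    have : ∀ a, -(1 + ω a - radonPt ω a) / ((n : ℝ) + 1) * ω a
        = -(ω a * (1 + ω a - radonPt ω a)) / ((n : ℝ) + 1) := by intro a; ring
    simp only [Matrix.mul_apply, Umat, Vmat, Matrix.cons_val, this, ← Finset.sum_div,
      Finset.sum_neg_distrib, g_wY]
  have e21 : (Vmat ω * Umat ω) 2 1
      = -(c * (Sw + (s - 1)) + c * (p - B) - c ^ 2 * (p - B)) / ((n : ℝ) + 1) := by
    have : ∀ a, -(1 + ω a - radonPt ω a) / ((n : ℝ) + 1) * radonPt ω a
        = -(radonPt ω a * (1 + ω a - radonPt ω a)) / ((n : ℝ) + 1) := by intro a; ring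
    simp only [Matrix.mul_apply, Umat, Vmat, Matrix.cons_val, this, ← Finset.sum_div,
      Finset.sum_neg_distrib, g_oY]
  have e22 : (Vmat ω * Umat ω) 2 2
      = -(n + p + c ^ 2 * (p - B) + 2 * Sw - 2 * (c * (Sw + (s - 1))) - 2 * (c * (p - B)))
        / ((n : ℝ) + 1) := by
    have : ∀ a, -(1 + ω a - radonPt ω a) / ((n : ℝ) + 1) * (1 + ω a - radonPt ω a)
        = -((1 + ω a - radonPt ω a) * (1 + ω a - radonPt ω a)) / ((n : ℝ) + 1) := by intro a; ring
    simp only [Matrix.mul_apply, Umat, Vmat, Matrix.cons_val, this, ← Finset.sum_div,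
      Finset.sum_neg_distrib, g_YY]
  rw [Matrix.det_fin_three]
  simp only [Matrix.add_apply, e00, e01, e02, e10, e11, e12, e20, e21, e22, Matrix.one_apply_eq]
  have z01 : (1 : Matrix (Fin 3) (Fin 3) ℝ) 0 1 = 0 := by simp
  have z02 : (1 : Matrix (Fin 3) (Fin 3) ℝ) 0 2 = 0 := by simp
  have z10 : (1 : Matrix (Fin 3) (Fin 3) ℝ) 1 0 = 0 := by simp
  have z12 : (1 : Matrix (Fin 3) (Fin 3) ℝ) 1 2 = 0 := by simp
  have z20 : (1 : Matrix (Fin 3) (Fin 3) ℝ) 2 0 = 0 := by simp
  have z21 : (1 : Matrix (Fin 3) (Fin 3) ℝ) 2 1 = 0 := by simp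
  rw [z01, z02, z10, z12, z20, z21]
  unfold thetaW muSq nuSq
  rw [hmax, ← hs, ← hB, ← hSw]
  have hc' : c = 1 / s := by rw [hc]; simp
  rw [hc']
  field_simp
  ring

end Vale.Agent.Lib.P254
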