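import Vale.Agent.Lib.P254.Few.Normalize

/-! F10: every full-dimensional convex hull of `n + 2` points of `ℝ^n` can be moved by an
invertible affine map onto some `hullW ω` with `∑ ω < 1`, with control of the Radon weights.
Pure linear/affine algebra. -/

namespace Vale.Agent.Lib.P254

open Set

variable {n : ℕ}

private lemma sums_aux (a b ω : Fin n → ℝ) (m q : ℝ) (hm : 0 < m)
    (ha : ∀ i, 0 ≤ a i) (hb : ∀ i, 0 ≤ b i) (hab : ∀ i, a i * b i = 0)
    (hsa : m + ∑ i, a i = 1) (hsb : q + ∑ i, b i = 1)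
    (hω : ∀ i, ω i = (b i - a i) / m) :
    ∑ i, ω i = 1 - q / m ∧ muSq ω = m ^ 2 + ∑ i, a i ^ 2 ∧
      nuSq ω = q ^ 2 + ∑ i, b i ^ 2 := by
  have hm' : m ≠ 0 := hm.ne'
  have hsum : ∑ i, ω i = 1 - q / m := by
    have : ∑ i, ω i = (∑ i, b i - ∑ i, a i) / m := by
      rw [← Finset.sum_sub_distrib, Finset.sum_div]
      exact Finset.sum_congr rfl (fun i _ => hω i)
    rw [this]
    have h1 : ∑ i, b i = 1 - q := by linarith
    have h2 : ∑ i, a i = 1 - m := by linarith
    rw [h1, h2]
    field_simp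
    ring
  have heta : ∀ i, eta ω i = a i / m := by
    intro i
    unfold eta
    rw [hω i]
    rcases mul_eq_zero.mp (hab i) with h | h
    · rw [h]
      have : -((b i - 0) / m) ≤ 0 := by
        have := div_nonneg (hb i) hm.le
        simp only [sub_zero]
        linarith
      rw [max_eq_right this]
      simp
    · rw [h]
      have : 0 ≤ -((0 - a i) / m) := by
        have := div_nonneg (ha i) hm.le
        have h2 : -((0 - a i) / m) = a i / m := by ring
        rw [h2]; exact this
      rw [max_eq_left this]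
      ring
  have hpos : ∀ i, max (ω i) 0 = b i / m := by
    intro i
    rw [hω i]
    rcases mul_eq_zero.mp (hab i) with h | h
    · rw [h]
      have : 0 ≤ ((b i - 0) / m) := by
        have := div_nonneg (hb i) hm.le
        simpa using this
      rw [max_eq_left this]
      simp
    · rw [h]
      have : ((0 - a i) / m) ≤ 0 := by
        have := div_nonneg (ha i) hm.le
        have h2 : ((0 - a i) / m) = -(a i / m) := by ring
        rw [h2]; linarith
      rw [max_eq_right this]
      simp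
  have hsS : sS ω = 1 / m := by
    unfold sS
    simp only [heta]
    rw [← Finset.sum_div]
    have h2 : ∑ i, a i = 1 - m := by linarith
    rw [h2]
    field_simp
    ring
  refine ⟨hsum, ?_, ?_⟩
  · unfold muSq
    rw [hsS]
    simp only [heta, div_pow]
    rw [← Finset.sum_div]
    field_simp
  · unfold nuSq
    rw [hsS, hsum]
    simp only [hpos, div_pow]
    rw [← Finset.sum_div]
    field_simp
    ring

private lemma key_comb (z : Fin (n + 2) → (Fin n → ℝ)) (μ ν : Fin (n + 2) → ℝ)
    (kp : Fin (n + 2)) (j : Fin (n + 1))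
    (hμ1 : ∑ k, μ k = 1) (hν1 : ∑ k, ν k = 1)
    (hbal : ∑ k, μ k • z k = ∑ k, ν k • z k)
    (hkp : 0 < μ kp) (hνkp : ν kp = 0) :
    z kp - z (kp.succAbove j) =
      ∑ i, ((ν (kp.succAbove (j.succAbove i)) - μ (kp.succAbove (j.succAbove i))) / μ kp) •
        (z (kp.succAbove (j.succAbove i)) - z (kp.succAbove j)) := by
  have hm' : μ kp ≠ 0 := hkp.ne'
  ext a
  have hb := congrFun hbal a
  simp only [Finset.sum_apply, Pi.smul_apply, smul_eq_mul, Pi.sub_apply] at hb ⊢
  rw [Fin.sum_univ_succAbove _ kp, Fin.sum_univ_succAbove _ j] at hμ1 hν1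
  rw [Fin.sum_univ_succAbove _ kp, Fin.sum_univ_succAbove _ j,
    Fin.sum_univ_succAbove (fun k => ν k * z k a) kp,
    Fin.sum_univ_succAbove (fun k => ν (kp.succAbove k) * z (kp.succAbove k) a) j] at hb
  have hR : ∑ i, ((ν (kp.succAbove (j.succAbove i)) - μ (kp.succAbove (j.succAbove i))) / μ kp) *
        (z (kp.succAbove (j.succAbove i)) a - z (kp.succAbove j) a)
      = (1 / μ kp) * ((∑ i, ν (kp.succAbove (j.succAbove i)) * z (kp.succAbove (j.succAbove i)) a)
        - (∑ i, μ (kp.succAbove (j.succAbove i)) * z (kp.succAbove (j.succAbove i)) a)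
        - z (kp.succAbove j) a * (∑ i, ν (kp.succAbove (j.succAbove i)))
        + z (kp.succAbove j) a * (∑ i, μ (kp.succAbove (j.succAbove i)))) := by
    simp only [Finset.mul_sum, ← Finset.sum_sub_distrib, ← Finset.sum_add_distrib]
    apply Finset.sum_congr rfl
    intro i _
    field_simp
    ring
  rw [hR]
  rw [hνkp] at hb hν1
  field_simp
  linear_combination hb + z (kp.succAbove j) a * hν1 - z (kp.succAbove j) a * hμ1

theorem normal_form (z : Fin (n + 2) → (Fin n → ℝ))
    (h : (interior (convexHull ℝ (range z))).Nonempty)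
    (μ ν : Fin (n + 2) → ℝ) (hμ : ∀ k, 0 ≤ μ k) (hν : ∀ k, 0 ≤ ν k)
    (hdisj : ∀ k, μ k * ν k = 0) (hμ1 : ∑ k, μ k = 1) (hν1 : ∑ k, ν k = 1)
    (hbal : ∑ k, μ k • z k = ∑ k, ν k • z k) :
    ∃ (L : (Fin n → ℝ) ≃ₗ[ℝ] (Fin n → ℝ)) (c : Fin n → ℝ) (ω : Fin n → ℝ),
      ∑ i, ω i < 1 ∧
      (fun x => L x + c) '' convexHull ℝ (range z) = hullW ω ∧
      muSq ω = ∑ k, μ k ^ 2 ∧ nuSq ω = ∑ k, ν k ^ 2 := by
  classical
  obtain ⟨kp, hkp⟩ : ∃ k, 0 < μ k := by
    by_contra hcon
    push Not at hcon
    have : ∑ k, μ k ≤ 0 := Finset.sum_nonpos (fun k _ => hcon k)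
    linarith
  obtain ⟨km, hkm⟩ : ∃ k, 0 < ν k := by
    by_contra hcon
    push Not at hcon
    have : ∑ k, ν k ≤ 0 := Finset.sum_nonpos (fun k _ => hcon k)
    linarith
  have hνkp : ν kp = 0 := by
    rcases mul_eq_zero.mp (hdisj kp) with h | h
    · linarith
    · exact h
  have hμkm : μ km = 0 := by
    rcases mul_eq_zero.mp (hdisj km) with h | h
    · exact h
    · linarith
  have hne : km ≠ kp := by
    rintro rfl
    linarith
  obtain ⟨j, rfl⟩ := Fin.exists_succAbove_eq hne
  have hcomb := key_comb z μ ν kp j hμ1 hν1 hbal hkp hνkp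
  -- covering of the index set
  have hcover : ∀ k : Fin (n + 2), k = kp ∨ k = kp.succAbove j ∨
      ∃ i, k = kp.succAbove (j.succAbove i) := by
    intro k
    rcases Fin.eq_self_or_eq_succAbove kp k with h1 | ⟨l, h1⟩
    · exact Or.inl h1
    · rcases Fin.eq_self_or_eq_succAbove j l with h2 | ⟨i, h2⟩
      · exact Or.inr (Or.inl (by rw [h1, h2]))
      · exact Or.inr (Or.inr ⟨i, by rw [h1, h2]⟩)
  -- linear independence
  have hspan : affineSpan ℝ (range z) = ⊤ :=
    interior_convexHull_nonempty_iff_affineSpan_eq_top.mp h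
  have hvs : vectorSpan ℝ (range z) = ⊤ := by
    rw [← direction_affineSpan, hspan, AffineSubspace.direction_top]
  rw [vectorSpan_range_eq_span_range_vsub_right ℝ z (kp.succAbove j)] at hvs
  have hli : LinearIndependent ℝ
      (fun i => z (kp.succAbove (j.succAbove i)) - z (kp.succAbove j)) := by
    apply linearIndependent_of_top_le_span_of_card_eq_finrank
    · rw [← hvs]
      apply Submodule.span_le.mpr
      rintro _ ⟨k, rfl⟩
      simp only [vsub_eq_sub, SetLike.mem_coe]
      rcases hcover k with rfl | rfl | ⟨i, rfl⟩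
      · rw [hcomb]
        apply Submodule.sum_mem
        intro i _
        apply Submodule.smul_mem
        exact Submodule.subset_span ⟨i, rfl⟩
      · rw [sub_self]
        exact Submodule.zero_mem _
      · exact Submodule.subset_span ⟨i, rfl⟩
    · simp
  obtain ⟨L, c, hL0, hLi⟩ := exists_normalize (z (kp.succAbove j))
    (fun i => z (kp.succAbove (j.succAbove i))) hli
  -- the vector omega
  have hω : ∀ i, (L (z kp) + c) i =
      (ν (kp.succAbove (j.succAbove i)) - μ (kp.succAbove (j.succAbove i))) / μ kp := by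
    intro i
    have h1 : L (z kp) + c = L (z kp - z (kp.succAbove j)) := by
      rw [map_sub]
      have : c = - L (z (kp.succAbove j)) := by
        rw [eq_neg_iff_add_eq_zero, add_comm]; exact hL0
      rw [this]; abel
    rw [h1, hcomb, map_sum]
    have h2 : ∀ i', L (((ν (kp.succAbove (j.succAbove i')) - μ (kp.succAbove (j.succAbove i'))) / μ kp) •
        (z (kp.succAbove (j.succAbove i')) - z (kp.succAbove j))) =
        ((ν (kp.succAbove (j.succAbove i')) - μ (kp.succAbove (j.succAbove i'))) / μ kp) •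
          (Pi.single i' 1 : Fin n → ℝ) := by
      intro i'
      rw [map_smul, map_sub]
      congr 1
      rw [← hLi i', ← sub_eq_zero]
      have := hL0
      have h3 : L (z (kp.succAbove (j.succAbove i'))) - L (z (kp.succAbove j)) -
          (L (z (kp.succAbove (j.succAbove i'))) + c) = -(L (z (kp.succAbove j)) + c) := by abel
      rw [h3, hL0, neg_zero]
    simp only [h2]
    rw [Finset.sum_apply]
    simp [Pi.single_apply]
  have hμ1' := hμ1
  have hν1' := hν1
  rw [Fin.sum_univ_succAbove _ kp, Fin.sum_univ_succAbove _ j] at hμ1' hν1'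
  rw [hμkm] at hμ1'
  rw [hνkp] at hν1'
  obtain ⟨hs, hmu, hnu⟩ := sums_aux (fun i => μ (kp.succAbove (j.succAbove i)))
    (fun i => ν (kp.succAbove (j.succAbove i))) (L (z kp) + c) (μ kp) (ν (kp.succAbove j)) hkp
    (fun i => hμ _) (fun i => hν _) (fun i => hdisj _) (by linarith) (by linarith) hω
  refine ⟨L, c, L (z kp) + c, ?_, ?_, ?_, ?_⟩
  · rw [hs]
    have := div_pos hkm hkp
    linarith
  · rw [image_convexHull_affine]
    unfold hullW stdVerts
    congr 1
    ext x
    simp only [mem_image, mem_range, mem_insert_iff]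
    constructor
    · rintro ⟨_, ⟨k, rfl⟩, rfl⟩
      rcases hcover k with rfl | rfl | ⟨i, rfl⟩
      · exact Or.inl rfl
      · exact Or.inr (Or.inl hL0)
      · exact Or.inr (Or.inr ⟨i, (hLi i).symm⟩)
    · rintro (rfl | rfl | ⟨i, rfl⟩)
      · exact ⟨_, ⟨kp, rfl⟩, rfl⟩
      · exact ⟨_, ⟨kp.succAbove j, rfl⟩, hL0⟩
      · exact ⟨_, ⟨kp.succAbove (j.succAbove i), rfl⟩, hLi i⟩
  · rw [hmu, Fin.sum_univ_succAbove _ kp, Fin.sum_univ_succAbove _ j, hμkm]
    ring
  · rw [hnu, Fin.sum_univ_succAbove _ kp, Fin.sum_univ_succAbove _ j, hνkp]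
    ring

end Vale.Agent.Lib.P254
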