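import Vale.Agent.Lib.P254.Few.Basic

/-! F11: Radon weights of `n + 2` points in `ℝ^n`. Pure linear/affine algebra. -/

namespace Vale.Agent.Lib.P254

open Set

variable {n : ℕ}

private theorem not_affineIndependent (z : Fin (n + 2) → (Fin n → ℝ)) :
    ¬ AffineIndependent ℝ z := by
  intro h
  have h1 := h.card_le_finrank_succ
  have h2 : Module.finrank ℝ (vectorSpan ℝ (Set.range z)) ≤ Module.finrank ℝ (Fin n → ℝ) :=
    Submodule.finrank_le _
  simp only [Fintype.card_fin, Module.finrank_fin_fun] at h1 h2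
  omega

theorem exists_radon_weights (z : Fin (n + 2) → (Fin n → ℝ)) :
    ∃ μ ν : Fin (n + 2) → ℝ, (∀ k, 0 ≤ μ k) ∧ (∀ k, 0 ≤ ν k) ∧ (∀ k, μ k * ν k = 0) ∧
      ∑ k, μ k = 1 ∧ ∑ k, ν k = 1 ∧ ∑ k, μ k • z k = ∑ k, ν k • z k := by
  classical
  have h := not_affineIndependent z
  rw [affineIndependent_iff] at h
  push Not at h
  obtain ⟨s, w, hw0, hwz, e, hes, hwe⟩ := h
  set v : Fin (n + 2) → ℝ := fun k => if k ∈ s then w k else 0 with hv
  have hv0 : ∑ k, v k = 0 := by
    rw [← hw0]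
    simp only [hv]
    rw [Finset.sum_ite_mem]
    simp
  have hvz : ∑ k, v k • z k = 0 := by
    rw [← hwz]
    simp only [hv, ite_smul, zero_smul]
    rw [Finset.sum_ite_mem]
    simp
  have hve : v e ≠ 0 := by simp [hv, hes, hwe]
  set σ : ℝ := ∑ k, max (v k) 0 with hσ
  have hsplit : ∀ k, v k = max (v k) 0 - max (-(v k)) 0 := by
    intro k
    rcases le_total 0 (v k) with h | h
    · rw [max_eq_left h, max_eq_right (by linarith)]; ring
    · rw [max_eq_right h, max_eq_left (by linarith)]; ring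
  have hσ' : ∑ k, max (-(v k)) 0 = σ := by
    have : ∑ k, (max (v k) 0 - max (-(v k)) 0) = 0 :=
      (Finset.sum_congr rfl (fun k _ => (hsplit k).symm)).trans hv0
    rw [Finset.sum_sub_distrib] at this
    linarith
  have hσpos : 0 < σ := by
    rcases lt_or_gt_of_ne hve with h | h
    · rw [← hσ']
      refine Finset.sum_pos' (fun k _ => le_max_right _ _) ⟨e, Finset.mem_univ _, ?_⟩
      exact lt_of_lt_of_le (by linarith) (le_max_left _ _)
    · rw [hσ]
      refine Finset.sum_pos' (fun k _ => le_max_right _ _) ⟨e, Finset.mem_univ _, ?_⟩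
      exact lt_of_lt_of_le h (le_max_left _ _)
  refine ⟨fun k => max (v k) 0 / σ, fun k => max (-(v k)) 0 / σ, ?_, ?_, ?_, ?_, ?_, ?_⟩
  · intro k; exact div_nonneg (le_max_right _ _) hσpos.le
  · intro k; exact div_nonneg (le_max_right _ _) hσpos.le
  · intro k
    show max (v k) 0 / σ * (max (-(v k)) 0 / σ) = 0
    rcases le_total 0 (v k) with h | h
    · rw [max_eq_right (show -(v k) ≤ 0 by linarith)]; simp
    · rw [max_eq_right h]; simp
  · rw [← Finset.sum_div, ← hσ]; exact div_self hσpos.ne'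
  · rw [← Finset.sum_div, hσ']; exact div_self hσpos.ne'
  · have h1 : ∑ k, (max (v k) 0 / σ) • z k - ∑ k, (max (-(v k)) 0 / σ) • z k
        = σ⁻¹ • ∑ k, v k • z k := by
      rw [← Finset.sum_sub_distrib, Finset.smul_sum]
      refine Finset.sum_congr rfl (fun k _ => ?_)
      rw [← sub_smul, smul_smul]
      congr 1
      conv_rhs => rw [hsplit k]
      field_simp
    rw [hvz, smul_zero] at h1
    exact sub_eq_zero.1 h1

theorem sum_sq_le_one {m : ℕ} (μ : Fin m → ℝ) (hμ : ∀ k, 0 ≤ μ k) (hμ1 : ∑ k, μ k = 1) :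
    ∑ k, μ k ^ 2 ≤ 1 := by
  rw [← hμ1]
  refine Finset.sum_le_sum (fun k _ => ?_)
  have h1 : μ k ≤ 1 := by
    rw [← hμ1]
    exact Finset.single_le_sum (fun i _ => hμ i) (Finset.mem_univ k)
  nlinarith [hμ k]

/-- if the points are in convex position, no Radon class is a single point -/
theorem sum_sq_lt_one (z : Fin (n + 2) → (Fin n → ℝ)) (hz : ConvexIndependent ℝ z)
    (μ ν : Fin (n + 2) → ℝ) (hμ : ∀ k, 0 ≤ μ k) (hν : ∀ k, 0 ≤ ν k)
    (hdisj : ∀ k, μ k * ν k = 0) (hμ1 : ∑ k, μ k = 1) (hν1 : ∑ k, ν k = 1)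
    (hbal : ∑ k, μ k • z k = ∑ k, ν k • z k) :
    ∑ k, μ k ^ 2 < 1 := by
  classical
  by_contra hcon
  push Not at hcon
  have hle1 : ∀ k, μ k ≤ 1 := by
    intro k
    rw [← hμ1]
    exact Finset.single_le_sum (fun i _ => hμ i) (Finset.mem_univ k)
  -- every `μ k (1 - μ k)` vanishes
  have hsum0 : ∑ k, μ k * (1 - μ k) ≤ 0 := by
    have : ∑ k, μ k * (1 - μ k) = ∑ k, μ k - ∑ k, μ k ^ 2 := by
      rw [← Finset.sum_sub_distrib]
      exact Finset.sum_congr rfl (fun k _ => by ring)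
    rw [this, hμ1]; linarith
  have hnn : ∀ k ∈ (Finset.univ : Finset (Fin (n + 2))), 0 ≤ μ k * (1 - μ k) :=
    fun k _ => mul_nonneg (hμ k) (by linarith [hle1 k])
  have hzero : ∀ k, μ k * (1 - μ k) = 0 := by
    have h0 : ∑ k, μ k * (1 - μ k) = 0 := le_antisymm hsum0 (Finset.sum_nonneg hnn)
    intro k
    exact (Finset.sum_eq_zero_iff_of_nonneg hnn).1 h0 k (Finset.mem_univ k)
  -- some `μ k0 = 1`
  obtain ⟨k0, hk0⟩ : ∃ k0, μ k0 ≠ 0 := by
    by_contra hall
    push Not at hall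
    simp [hall] at hμ1
  have hk1 : μ k0 = 1 := by
    rcases mul_eq_zero.1 (hzero k0) with h | h
    · exact absurd h hk0
    · linarith
  have hother : ∀ k, k ≠ k0 → μ k = 0 := by
    intro k hk
    have h1 : μ k0 + μ k ≤ ∑ i, μ i := by
      have : ∑ i ∈ ({k0, k} : Finset (Fin (n + 2))), μ i ≤ ∑ i, μ i :=
        Finset.sum_le_sum_of_subset_of_nonneg (Finset.subset_univ _) (fun i _ _ => hμ i)
      rwa [Finset.sum_pair (Ne.symm hk)] at this
    have := hμ k
    linarith
  have hν0 : ν k0 = 0 := by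
    have := hdisj k0
    rw [hk1, one_mul] at this
    exact this
  have hL : ∑ k, μ k • z k = z k0 := by
    rw [Finset.sum_eq_single k0 (fun k _ hk => by rw [hother k hk, zero_smul])
      (fun h => absurd (Finset.mem_univ _) h), hk1, one_smul]
  have hR : ∑ k, ν k • z k = ∑ k ∈ Finset.univ.erase k0, ν k • z k := by
    rw [← Finset.add_sum_erase _ _ (Finset.mem_univ k0), hν0, zero_smul, zero_add]
  have hR1 : ∑ k ∈ Finset.univ.erase k0, ν k = 1 := by
    rw [← hν1, ← Finset.add_sum_erase _ _ (Finset.mem_univ k0), hν0, zero_add]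
  have hmem : z k0 ∈ convexHull ℝ (z '' {k | k ≠ k0}) := by
    rw [← hL, hbal, hR]
    refine (convex_convexHull ℝ _).sum_mem (fun i _ => hν i) hR1 (fun i hi => ?_)
    exact subset_convexHull ℝ _ ⟨i, Finset.ne_of_mem_erase hi, rfl⟩
  exact (hz _ _ hmem) rfl

end Vale.Agent.Lib.P254
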