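import Vale.Agent.Lib.P254.Few.MomentsK
import Vale.Agent.Lib.P254.Few.AffineInv
import Vale.Agent.Lib.P254.Few.Det
import Vale.Agent.Lib.P254.Few.NormalForm
import Vale.Agent.Lib.P254.Few.Radon

/-! Assembly: isotropic constant of polytopes with at most `n + 2` vertices. -/

namespace Vale.Agent.Lib.P254

open MeasureTheory Set

variable {n : ℕ}

theorem simplexRatio_pos (n : ℕ) : 0 < simplexRatio n := by
  unfold simplexRatio; positivity

theorem ratio_hullW (ω : Fin n → ℝ) (hω : ∑ i, ω i < 1) :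
    ratio (hullW ω) = simplexRatio n * thetaW ω := by
  unfold ratio simplexRatio
  rw [cov_hullW ω hω, vol_hullW ω hω, Matrix.det_smul, det_Cmat, Fintype.card_fin]
  have hs : 0 < sS ω := lt_of_lt_of_le one_pos (sS_pos ω)
  have hf : (0 : ℝ) < n.factorial := by exact_mod_cast n.factorial_pos
  have hn : (0 : ℝ) ≤ n := Nat.cast_nonneg n
  rw [pow_succ ((n : ℝ) + 1) n, div_pow, one_pow, mul_pow]
  field_simp

theorem thetaW_zero : thetaW (0 : Fin n → ℝ) = 1 := by
  simp [thetaW, muSq, nuSq, sS, eta]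

theorem ratio_std (n : ℕ) : ratio (convexHull ℝ (stdVerts n)) = simplexRatio n := by
  have h0 : hullW (0 : Fin n → ℝ) = convexHull ℝ (stdVerts n) := by
    unfold hullW
    rw [insert_eq_of_mem]
    exact mem_insert _ _
  have := ratio_hullW (0 : Fin n → ℝ) (by simp)
  rw [h0, thetaW_zero, mul_one] at this
  exact this

theorem ratio_simplex {S : Set (Fin n → ℝ)} (hS : IsSimplex S) : ratio S = simplexRatio n := by
  obtain ⟨L, c, h⟩ := simplex_normal_form hS
  have hb := isConvexBody_of_isSimplex hS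
  rw [← ratio_image_affine L c hb.1 (vol_pos hb).ne', h, ratio_std]

theorem ratio_few (z : Fin (n + 2) → (Fin n → ℝ))
    (h : (interior (convexHull ℝ (range z))).Nonempty)
    (μ ν : Fin (n + 2) → ℝ) (hμ : ∀ k, 0 ≤ μ k) (hν : ∀ k, 0 ≤ ν k)
    (hdisj : ∀ k, μ k * ν k = 0) (hμ1 : ∑ k, μ k = 1) (hν1 : ∑ k, ν k = 1)
    (hbal : ∑ k, μ k • z k = ∑ k, ν k • z k) :
    ratio (convexHull ℝ (range z))
      = simplexRatio n * (1 - (1 - ∑ k, μ k ^ 2) * (1 - ∑ k, ν k ^ 2)) := by
  obtain ⟨L, c, ω, hω, him, h1, h2⟩ := normal_form z h μ ν hμ hν hdisj hμ1 hν1 hbal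
  have hb : IsConvexBody (convexHull ℝ (range z)) :=
    ⟨(finite_range z).isCompact_convexHull (𝕜 := ℝ), convex_convexHull ℝ _, h⟩
  rw [← ratio_image_affine L c hb.1 (vol_pos hb).ne', him, ratio_hullW ω hω, thetaW, h1, h2]

end Vale.Agent.Lib.P254
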