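import Vale.Agent.Lib.P254.Few.Decomp

/-! F6: volume, first and second moments and covariance matrix of `hullW ω`. -/

namespace Vale.Agent.Lib.P254

open MeasureTheory Set

variable {n : ℕ}

private theorem eta_nonneg (ω : Fin n → ℝ) (i : Fin n) : 0 ≤ eta ω i := le_max_right _ _

private theorem sS_pos (ω : Fin n → ℝ) : 0 < sS ω := by
  unfold sS
  have : 0 ≤ ∑ i, eta ω i := Finset.sum_nonneg fun i _ => eta_nonneg ω i
  linarith

private theorem sum_eta (ω : Fin n → ℝ) : ∑ i, eta ω i = sS ω - 1 := by
  unfold sS; ring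

private theorem sum_eta_ite (ω : Fin n → ℝ) (a : Fin n) :
    ∑ i, eta ω i * (if a = i then (1 : ℝ) else 0) = eta ω a := by
  simp

theorem vol_hullW (ω : Fin n → ℝ) (hω : ∑ i, ω i < 1) :
    vol (hullW ω) = sS ω / (n.factorial : ℝ) := by
  rw [vol_eq_integral, integral_hullW ω hω (fun _ => (1 : ℝ)) continuous_const,
    ← vol_eq_integral, vol_stdS, ← Finset.sum_mul, sum_eta]
  ring

private theorem m1_repl (ω : Fin n → ℝ) (i a : Fin n) :
    ∫ x in stdS n, repl ω i x a
      = (1 + (ω a - if a = i then 1 else 0)) / ((n + 1).factorial : ℝ) := by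
  unfold repl
  rw [integral_add (integrableOn_coord (isCompact_stdS n) a)
    ((integrableOn_coord (isCompact_stdS n) i).mul_const _), integral_mul_const,
    m1_stdS, m1_stdS]
  ring

theorem m1_hullW (ω : Fin n → ℝ) (hω : ∑ i, ω i < 1) (a : Fin n) :
    ∫ x in hullW ω, x a
      = (sS ω + (sS ω - 1) * ω a - eta ω a) / ((n + 1).factorial : ℝ) := by
  rw [integral_hullW ω hω (fun x => x a) (continuous_apply a), m1_stdS]
  simp_rw [m1_repl]
  have e : ∀ i, eta ω i * ((1 + (ω a - if a = i then 1 else 0)) / ((n + 1).factorial : ℝ))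
      = (eta ω i * (1 + ω a) - eta ω i * (if a = i then (1 : ℝ) else 0))
        / ((n + 1).factorial : ℝ) := by
    intro i; ring
  simp_rw [e]
  rw [← Finset.sum_div, Finset.sum_sub_distrib, ← Finset.sum_mul, sum_eta, sum_eta_ite]
  ring

private theorem m2_repl (ω : Fin n → ℝ) (i a b : Fin n) :
    ∫ x in stdS n, repl ω i x a * repl ω i x b
      = ((if a = b then 2 else 1)
          + (ω b - if b = i then 1 else 0) * (if a = i then 2 else 1)
          + (ω a - if a = i then 1 else 0) * (if i = b then 2 else 1)
          + (ω a - if a = i then 1 else 0) * (ω b - if b = i then 1 else 0) * 2)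
        / ((n + 2).factorial : ℝ) := by
  unfold repl
  set ca : ℝ := ω a - if a = i then 1 else 0 with hca
  set cb : ℝ := ω b - if b = i then 1 else 0 with hcb
  have e : ∀ x : Fin n → ℝ, (x a + x i * ca) * (x b + x i * cb)
      = x a * x b + cb * (x a * x i) + ca * (x i * x b) + ca * cb * (x i * x i) := by
    intro x; ring
  simp_rw [e]
  have hK := isCompact_stdS n
  rw [integral_add, integral_add, integral_add, integral_const_mul, integral_const_mul,
    integral_const_mul, m2_stdS, m2_stdS, m2_stdS, m2_stdS]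
  · simp only [if_true]
    ring
  · exact integrableOn_coord2 hK a b
  · exact (integrableOn_coord2 hK a i).const_mul cb
  · exact (integrableOn_coord2 hK a b).add ((integrableOn_coord2 hK a i).const_mul cb)
  · exact (integrableOn_coord2 hK i b).const_mul ca
  · exact ((integrableOn_coord2 hK a b).add ((integrableOn_coord2 hK a i).const_mul cb)).add
      ((integrableOn_coord2 hK i b).const_mul ca)
  · exact (integrableOn_coord2 hK i i).const_mul (ca * cb)

theorem m2_hullW (ω : Fin n → ℝ) (hω : ∑ i, ω i < 1) (a b : Fin n) :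
    ∫ x in hullW ω, x a * x b
      = (((if a = b then 1 else 0) + 1) + (sS ω - 1) * ((if a = b then 1 else 0) + ω a * ω b)
          + (sS ω - 1) * (1 + ω a) * (1 + ω b) - eta ω a * (1 + ω b) - eta ω b * (1 + ω a))
        / ((n + 2).factorial : ℝ) := by
  rw [integral_hullW ω hω (fun x => x a * x b) ((continuous_apply a).mul (continuous_apply b)),
    m2_stdS]
  simp_rw [m2_repl]
  have e : ∀ i, eta ω i * (((if a = b then 2 else 1)
          + (ω b - if b = i then 1 else 0) * (if a = i then 2 else 1)
          + (ω a - if a = i then 1 else 0) * (if i = b then 2 else 1)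
          + (ω a - if a = i then 1 else 0) * (ω b - if b = i then 1 else 0) * 2)
        / ((n + 2).factorial : ℝ))
      = (eta ω i * (((if a = b then 1 else 0) + 1) + ω a + ω b + 2 * (ω a * ω b))
          - eta ω i * (if a = i then (1 : ℝ) else 0) * (1 + ω b)
          - eta ω i * (if b = i then (1 : ℝ) else 0) * (1 + ω a))
        / ((n + 2).factorial : ℝ) := by
    intro i
    rw [← mul_div_assoc]
    congr 1
    have hib : (if i = b then (2 : ℝ) else 1) = if b = i then 2 else 1 := by
      by_cases h : b = i
      · rw [if_pos h, if_pos h.symm]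
      · rw [if_neg h, if_neg (fun h' => h h'.symm)]
    rw [hib]
    by_cases h2 : a = i
    · by_cases h3 : b = i
      · have h1 : a = b := h2.trans h3.symm
        simp only [if_pos h1, if_pos h2, if_pos h3]
        ring
      · have h1 : a ≠ b := fun h => h3 (h.symm.trans h2)
        simp only [if_neg h1, if_pos h2, if_neg h3]
        ring
    · by_cases h3 : b = i
      · have h1 : a ≠ b := fun h => h2 (h.trans h3)
        simp only [if_neg h1, if_neg h2, if_pos h3]
        ring
      · simp only [if_neg h2, if_neg h3]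
        by_cases h1 : a = b
        · simp only [if_pos h1]; ring
        · simp only [if_neg h1]; ring
  simp_rw [e]
  rw [← Finset.sum_div, Finset.sum_sub_distrib, Finset.sum_sub_distrib, ← Finset.sum_mul,
    ← Finset.sum_mul, ← Finset.sum_mul, sum_eta, sum_eta_ite, sum_eta_ite]
  by_cases h1 : a = b <;> simp only [h1, if_true, if_false] <;> ring

theorem cov_hullW (ω : Fin n → ℝ) (hω : ∑ i, ω i < 1) :
    covMatrix (hullW ω) = (1 / (((n : ℝ) + 1) * ((n : ℝ) + 2))) • Cmat ω := by
  have hs := sS_pos ω
  have hf : (0 : ℝ) < (n.factorial : ℝ) := by exact_mod_cast n.factorial_pos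
  have hV : vol (hullW ω) ≠ 0 := by
    rw [vol_hullW ω hω]; positivity
  have f1 : ((n + 1).factorial : ℝ) = ((n : ℝ) + 1) * (n.factorial : ℝ) := by
    rw [Nat.factorial_succ]; push_cast; ring
  have f2 : ((n + 2).factorial : ℝ) = ((n : ℝ) + 2) * (((n : ℝ) + 1) * (n.factorial : ℝ)) := by
    rw [Nat.factorial_succ, Nat.factorial_succ]; push_cast; ring
  have hn1 : (0 : ℝ) < (n : ℝ) + 1 := by positivity
  have hn2 : (0 : ℝ) < (n : ℝ) + 2 := by positivity
  ext a b
  rw [cov_eq (isCompact_hullW ω) hV a b]
  unfold centroid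
  rw [vol_hullW ω hω, m1_hullW ω hω, m1_hullW ω hω, m2_hullW ω hω, f1, f2]
  simp only [Matrix.smul_apply, smul_eq_mul, Cmat, radonPt]
  field_simp
  ring

end Vale.Agent.Lib.P254
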