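import Vale.Agent.Lib.P254.Few.Basic

/-! F9: affine normalisation. Pure linear/affine algebra. -/

namespace Vale.Agent.Lib.P254

open Set

variable {n : ℕ}

/-- an affine frame can be moved to the standard one -/
theorem exists_normalize (p0 : Fin n → ℝ) (p : Fin n → (Fin n → ℝ))
    (hp : LinearIndependent ℝ (fun i => p i - p0)) :
    ∃ (L : (Fin n → ℝ) ≃ₗ[ℝ] (Fin n → ℝ)) (c : Fin n → ℝ),
      L p0 + c = 0 ∧ ∀ i, L (p i) + c = Pi.single i 1 := by
  have hspan : Submodule.span ℝ (Set.range fun i => p i - p0) = ⊤ :=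
    hp.span_eq_top_of_card_eq_finrank' (by simp)
  let b := Module.Basis.mk hp (le_of_eq hspan.symm)
  refine ⟨b.equivFun, -(b.equivFun p0), by simp, fun i => ?_⟩
  have h1 : b i = p i - p0 := Module.Basis.mk_apply hp _ i
  have h2 : b.equivFun (b i) = Pi.single i 1 := by
    funext j
    rw [b.equivFun_self i j, Pi.single_apply]
    by_cases h : i = j
    · simp [h]
    · have h' : ¬ j = i := fun e => h e.symm
      simp [h, h']
  rw [h1, map_sub] at h2
  rw [← h2]
  abel

/-- image of a convex hull under an affine map `x ↦ L x + c` -/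
theorem image_convexHull_affine (L : (Fin n → ℝ) ≃ₗ[ℝ] (Fin n → ℝ)) (c : Fin n → ℝ)
    (s : Set (Fin n → ℝ)) :
    (fun x => L x + c) '' convexHull ℝ s = convexHull ℝ ((fun x => L x + c) '' s) := by
  let f : (Fin n → ℝ) →ᵃ[ℝ] (Fin n → ℝ) :=
    (L : (Fin n → ℝ) →ₗ[ℝ] (Fin n → ℝ)).toAffineMap + AffineMap.const ℝ (Fin n → ℝ) c
  have hf : (fun x => L x + c) = f := by
    funext x
    simp [f]
  rw [hf]
  exact f.image_convexHull s

/-- every simplex is an affine image of... : it can be moved onto `convexHull (stdVerts n)` -/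
theorem simplex_normal_form {S : Set (Fin n → ℝ)} (hS : IsSimplex S) :
    ∃ (L : (Fin n → ℝ) ≃ₗ[ℝ] (Fin n → ℝ)) (c : Fin n → ℝ),
      (fun x => L x + c) '' S = convexHull ℝ (stdVerts n) := by
  obtain ⟨v, hv, rfl⟩ := hS
  have h1 := (affineIndependent_iff_linearIndependent_vsub ℝ v none).mp hv
  have h2 : LinearIndependent ℝ (fun i : Fin n => v (some i) - v none) := by
    have hinj : Function.Injective
        (fun i : Fin n => (⟨some i, by simp⟩ : {x : Option (Fin n) // x ≠ none})) := by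
      intro i j hij
      simpa using hij
    exact h1.comp _ hinj
  obtain ⟨L, c, h0, hi⟩ := exists_normalize (v none) (fun i => v (some i)) h2
  refine ⟨L, c, ?_⟩
  rw [image_convexHull_affine]
  congr 1
  ext y
  constructor
  · rintro ⟨_, ⟨o, rfl⟩, rfl⟩
    cases o with
    | none => exact Or.inl h0
    | some i => exact Or.inr ⟨i, (hi i).symm⟩
  · rintro (rfl | ⟨i, rfl⟩)
    · exact ⟨v none, ⟨none, rfl⟩, h0⟩
    · exact ⟨v (some i), ⟨some i, rfl⟩, hi i⟩

end Vale.Agent.Lib.P254
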